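import Vale.Agent.P088.R2.H269.W.W14

/-!
# P088, stage 4: doubly harmonic corrections for systems, statement

The operators are `div (s₁ ∇ ·) + ∑ B_i(x) ∂_i` in `x` and `div (s₂ ∇ ·) + ∑ C_i(y) ∂_i` in `y`,
with commuting matrices `B_i(x)`, `C_j(y)`.
-/

open MeasureTheory Set Filter
open scoped ContDiff Matrix Topology

noncomputable section

namespace Vale.Agent.P088.S4

open Vale.Agent.P088.LR
open Vale.Agent.P088.HY (VV)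
open Vale.Agent.P088.R2.H269 (DX DY PX PY QX QY Tn Wt Tt)

variable {n m : ℕ}

/-- Coefficients of first order: smooth and bounded with their derivatives. -/
structure Bn (M : ℝ) (B : Fin n → V n → Matrix (Fin m) (Fin m) ℝ) : Prop where
  sm : ∀ i a b, ContDiff ℝ ∞ (fun x => B i x a b)
  b0 : ∀ i a b x, |B i x a b| ≤ M
  b1 : ∀ k i a b x, |pd k (fun y => B i y a b) x| ≤ M

/-- Uniformly elliptic tensors. -/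
def Ue (M : ℝ) (s : MF n) : Prop :=
  ∀ x (ξ : Fin n → ℝ), ∑ i, ξ i ^ 2 ≤ M * ∑ i, ∑ j, s x i j * (ξ i * ξ j)

/-- `div (s ∇ f) + ∑ B_i(x) ∂_{x_i} f`. -/
def AXN (s : MF n) (B : Fin n → V n → Matrix (Fin m) (Fin m) ℝ) (f : Fin m → VV n → ℝ)
    (a : Fin m) (z : VV n) : ℝ :=
  DX s (f a) z + ∑ i, ∑ b, B i z.1 a b * HY.dx i (f b) z

/-- `div (s ∇ f) + ∑ C_i(y) ∂_{y_i} f`. -/
def AYN (s : MF n) (C : Fin n → V n → Matrix (Fin m) (Fin m) ℝ) (f : Fin m → VV n → ℝ)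
    (a : Fin m) (z : VV n) : ℝ :=
  DY s (f a) z + ∑ i, ∑ b, C i z.2 a b * HY.dy i (f b) z

/-- `P_x f = e^{-W} A_x (e^W f)`. -/
def PXN (s : MF n) (B : Fin n → V n → Matrix (Fin m) (Fin m) ℝ) (W : VV n → ℝ)
    (f : Fin m → VV n → ℝ) (a : Fin m) (z : VV n) : ℝ :=
  PX s W (f a) z + ∑ i, ∑ b, B i z.1 a b * (HY.dx i (f b) z + HY.dx i W z * f b z)

/-- `P_y f = e^{-W} A_y (e^W f)`. -/
def PYN (s : MF n) (C : Fin n → V n → Matrix (Fin m) (Fin m) ℝ) (W : VV n → ℝ)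
    (f : Fin m → VV n → ℝ) (a : Fin m) (z : VV n) : ℝ :=
  PY s W (f a) z + ∑ i, ∑ b, C i z.2 a b * (HY.dy i (f b) z + HY.dy i W z * f b z)

/-- `P_x^* f = e^W A_x^t (e^{-W} f)`. -/
def QXN (s : MF n) (B : Fin n → V n → Matrix (Fin m) (Fin m) ℝ) (W : VV n → ℝ)
    (f : Fin m → VV n → ℝ) (a : Fin m) (z : VV n) : ℝ :=
  QX s W (f a) z - ∑ i, ∑ b, (B i z.1 b a * (HY.dx i (f b) z - HY.dx i W z * f b z) +
    pd i (fun x => B i x b a) z.1 * f b z)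

/-- `P_y^* f = e^W A_y^t (e^{-W} f)`. -/
def QYN (s : MF n) (C : Fin n → V n → Matrix (Fin m) (Fin m) ℝ) (W : VV n → ℝ)
    (f : Fin m → VV n → ℝ) (a : Fin m) (z : VV n) : ℝ :=
  QY s W (f a) z - ∑ i, ∑ b, (C i z.2 b a * (HY.dy i (f b) z - HY.dy i W z * f b z) +
    pd i (fun x => C i x b a) z.2 * f b z)

/-- **SOL3N**, the twin of `R2.H269.solK` for systems. -/
def RowSOL3N : Prop := ∀ n m : ℕ, 0 < n → ∀ M : ℝ, 0 ≤ M → ∀ s₁ s₂ : MF n, Tn M s₁ → Tn M s₂ →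
  Ue M s₁ → Ue M s₂ →
  ∀ B C : Fin n → V n → Matrix (Fin m) (Fin m) ℝ, Bn M B → Bn M C →
  (∀ i j x y, B i x * C j y = C j y * B i x) →
  ∀ W : VV n → ℝ, Wt M W → ∀ w o₁ o₂ : VV n → ℝ, Continuous w → (∀ z, 0 < w z) →
  Continuous o₁ → (∀ z, 0 < o₁ z) → Continuous o₂ → (∀ z, 0 < o₂ z) → ∀ C₂ : ℝ,
  (∀ z, o₂ z ≤ C₂) →
  (∀ a₁ a₂ : Fin m → VV n → ℝ, (∀ a, Tt univ (a₁ a)) → (∀ a, Tt univ (a₂ a)) →
    ∫ z, w z * ∑ a, (a₁ a z ^ 2 + a₂ a z ^ 2) ≤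
      ∫ z, (o₁ z * ∑ a, (QXN s₁ B W a₁ a z + QYN s₂ C W a₂ a z) ^ 2
        + o₂ z * ∑ a, (PYN s₂ C W a₁ a z - PXN s₁ B W a₂ a z) ^ 2)) →
  ∀ K₀ : Fin m → VV n → ℝ, (∀ a, ContDiff ℝ ∞ (K₀ a)) → (∀ a, HasCompactSupport (K₀ a)) →
  ∃ K₁ : Fin m → VV n → ℝ, (∀ a, ContDiff ℝ ∞ (K₁ a)) ∧
    (∀ a z, AXN s₁ B K₁ a z = AXN s₁ B K₀ a z) ∧ (∀ a z, AYN s₂ C K₁ a z = AYN s₂ C K₀ a z) ∧
    Integrable (fun z => Real.exp (-(2 * W z)) * (∑ a, K₁ a z ^ 2) / o₁ z) ∧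
    ∫ z, Real.exp (-(2 * W z)) * (∑ a, K₁ a z ^ 2) / o₁ z ≤
      ∫ z, Real.exp (-(2 * W z)) * (∑ a, (AXN s₁ B K₀ a z ^ 2 + AYN s₂ C K₀ a z ^ 2)) / w z

end Vale.Agent.P088.S4
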