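import Vale.Agent.P088.R2.H349.S4.Defs
import Vale.Agent.P088.R2.H354.Spec3

/-!
# P088, stage 4: the local theorem for pairs, the interface between the manifold and `V n`

`D` is the chart, `G` the open set of the matched points (interior step), or the outside of the
manifold (boundary start). Index `1` is the side on which the solutions are produced (Runge),
index `2` the other one.
-/

open MeasureTheory Set
open scoped ContDiff Matrix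

noncomputable section

namespace Vale.Agent.P088.S4

open Vale.Agent.P088.LR Vale.Agent.P088.LR.U Vale.Agent.P088.LR.H158
open Vale.Agent.P088.PJ
open Vale.Agent.P088.HY.T3 (Eb)

variable {n N : ℕ}

/-- `∂_i u`, for columns. -/
def pdv (i : Fin n) (u : V n → Fin N → ℂ) : V n → Fin N → ℂ := fun x a =>
  pd i (fun y => u y a) x

/-- `∑ ∂_i (T_il ∂_l u) + ∑ κ_i ∂_i u`, for columns. -/
def MoV (T : Fin n → Fin n → MC n N) (κ : Fin n → MC n N) (u : V n → Fin N → ℂ) :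
    V n → Fin N → ℂ := fun x =>
  ∑ i, pdv i (fun y => ∑ l, T i l y *ᵥ pdv l u y) x + ∑ i, κ i x *ᵥ pdv i u x

/-- `|v|²`. -/
def nv (v : Fin N → ℂ) : ℝ := ∑ a, ‖v a‖ ^ 2

/-- **The transfer of finite families** (weak form). For test functions `f` in `D` there are
families `dv` (the gradients off `G` of solutions `v`, `M₁ v = 0`) and `w` (`v + w` is the
transferred solution, `M₂ (v + w) = 0`, `w = 0` on `G`), with bounds for all combinations. Only the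
values of the coefficients off `G` are used. -/
def StpN (D G : Set (V n)) (T₁ : Fin n → Fin n → MC n N) (κ₁ : Fin n → MC n N)
    (T₂ : Fin n → Fin n → MC n N) (κ₂ : Fin n → MC n N) : Prop :=
  ∃ C₀ : ℝ, 0 ≤ C₀ ∧ ∀ (d : ℕ) (f : Fin d → V n → Fin N → ℂ),
    (∀ q, ContDiff ℝ ∞ (f q)) → (∀ q, HasCompactSupport (f q)) → (∀ q, tsupport (f q) ⊆ D) →
    ∀ ε : ℝ, 0 < ε →
    ∃ (w : Fin d → V n → Fin N → ℂ) (dv : Fin d → Fin n → V n → Fin N → ℂ),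
      (∀ q, ContDiffOn ℝ 1 (w q) D) ∧ (∀ q, ∀ x ∈ G ∩ D, w q x = 0) ∧
      (∀ q a, MemLp (fun x => w q x a) 2 (volume.restrict D)) ∧
      (∀ q i a, MemLp (fun x => pdv i (w q) x a) 2 (volume.restrict D)) ∧
      (∀ q i a, MemLp (fun x => dv q i x a) 2 (volume.restrict (D \ G))) ∧
      (∀ q, ∀ φ : V n → Fin N → ℂ, ContDiff ℝ ∞ φ → HasCompactSupport φ → tsupport φ ⊆ D →
        (∫ x in D, ((∑ i, ∑ j, pdv j φ x ⬝ᵥ (T₂ j i x *ᵥ pdv i (w q) x)) -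
            ∑ i, φ x ⬝ᵥ (κ₂ i x *ᵥ pdv i (w q) x))) =
          ∫ x in D \ G, ((∑ i, ∑ j, pdv j φ x ⬝ᵥ ((T₁ j i x - T₂ j i x) *ᵥ dv q i x)) -
            ∑ i, φ x ⬝ᵥ ((κ₁ i x - κ₂ i x) *ᵥ dv q i x))) ∧
      ∀ c : Fin d → ℝ,
        (∫ x in D \ G, ∑ i, nv (∑ q, (c q : ℂ) • (dv q i x - pdv i (f q) x))) ≤
          C₀ * (∫ x in D \ G, nv (∑ q, (c q : ℂ) • MoV T₁ κ₁ (f q) x)) + ε * (∑ q, c q ^ 2) ∧
        (∫ x in D, (nv (∑ q, (c q : ℂ) • w q x) + ∑ i, nv (∑ q, (c q : ℂ) • pdv i (w q) x))) ≤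
          C₀ * ((∫ x in D \ G, (nv (∑ q, (c q : ℂ) • f q x) +
              ∑ i, nv (∑ q, (c q : ℂ) • pdv i (f q) x))) +
            ∫ x in D \ G, nv (∑ q, (c q : ℂ) • MoV T₁ κ₁ (f q) x)) + ε * (∑ q, c q ^ 2)

/-- The local data of one pair, smooth on `O`, with the equations on `E ⊆ O`. -/
structure L1 (O E : Set (V n)) (s : MF n) (P : MC n N) (G : Fin n → MC n N) : Prop where
  ss : ∀ i j, ContDiffOn ℝ ∞ (fun x => s x i j) O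
  sP : ∀ a b, ContDiffOn ℝ ∞ (fun x => P x a b) O
  sG : ∀ i a b, ContDiffOn ℝ ∞ (fun x => G i x a b) O
  ps : ∀ x ∈ O, (s x).PosDef
  hP : ∀ x ∈ O, (P x)ᴴ = P x
  pP : ∀ x ∈ O, ∀ v : Fin N → ℂ, v ≠ 0 → 0 < (star v ⬝ᵥ (P x *ᵥ v)).re
  hG : ∀ i, ∀ x ∈ O, (G i x)ᴴ = -G i x
  dq : ∀ x ∈ E, ∑ i, pdm i (kp s G i) x = 0
  pe : ∀ x ∈ E, ∑ i, pdm i (fun y => ∑ j, (s y i j : ℂ) • pdm j P y) x =
    (1 / 2 : ℂ) • ∑ i, ∑ j, (s x i j : ℂ) •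
      ((pdm i P x - G i x) * (P x)⁻¹ * (pdm j P x + G j x))

/-- The local data of two pairs on the chart `O`, equal off the closed set `K`. The equations hold
on `O ∩ K`: at a boundary point `O \ K` is outside of the manifold, and the fields are smooth
extensions there. -/
structure LP (O K : Set (V n)) (j₀ : Fin N) (s₁ s₂ : MF n) (P₁ P₂ : MC n N)
    (G₁ G₂ Y D : Fin n → MC n N) : Prop where
  d₁ : L1 O (O ∩ K) s₁ P₁ G₁
  d₂ : L1 O (O ∩ K) s₂ P₂ G₂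
  sY : ∀ i a b, ContDiffOn ℝ ∞ (fun x => Y i x a b) O
  sD : ∀ i a b, ContDiffOn ℝ ∞ (fun x => D i x a b) O
  os : ∀ x ∈ O, x ∉ K → s₂ x = s₁ x
  oP : ∀ x ∈ O, x ∉ K → P₂ x = P₁ x
  oG : ∀ i, ∀ x ∈ O, x ∉ K → G₂ i x = G₁ i x
  oD : ∀ a, ∀ x ∈ O, x ∉ K → D a x = 0
  tD : ∀ a, ∀ x ∈ O, (D a x j₀ j₀).re = 0
  hY : ∀ a, ∀ x ∈ O ∩ K, MoC (TP s₁ P₁) (kp s₁ G₁) (Y a) x = 0
  gi : ∀ a, ∀ x ∈ O ∩ K, MoC (TP s₂ P₂) (kp s₂ G₂) (fun x => Y a x + D a x) x = 0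

/-- **CORE4**, the local theorem for two pairs: `G` is the open set of the matched points, it
contains a ball touching `0`; at `0` the frame is orthonormal and the coordinate solutions are
`x_a + O(|x|²)`. -/
def RowCORE4 : Prop := ∀ n N : ℕ, 3 ≤ n → 1 ≤ N → ∀ (R r : ℝ) (a : V n) (G : Set (V n))
  (j₀ : Fin N) (s₁ s₂ : MF n) (P₁ P₂ : MC n N) (G₁ G₂ Y D : Fin n → MC n N),
  0 < R → 0 < r → HY.sq a = r ^ 2 → IsOpen G → Eb a r ∩ Eb 0 R ⊆ G →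
  LP (Eb 0 R) Gᶜ j₀ s₁ s₂ P₁ P₂ G₁ G₂ Y D → P₁ 0 = 1 →
  (∀ a i, pdm i (Y a) 0 = if a = i then 1 else 0) →
  StpN (Eb 0 R) G (TP s₁ P₁) (kp s₁ G₁) (TP s₂ P₂) (kp s₂ G₂) →
  ∃ δ : ℝ, 0 < δ ∧ ∀ x ∈ Eb (0 : V n) δ, s₂ x = s₁ x ∧ P₂ x = P₁ x ∧ (∀ i, G₂ i x = G₁ i x) ∧
    ∀ a, D a x = 0

end Vale.Agent.P088.S4
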