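import Vale.Agent.P088.R2.H455.S3.Fin
import Vale.Agent.P088.TM.Data

/-!
# P088, stage 4: pairs of a metric and a connection, the final theorem from the interior step and
the start at the patch
-/

open Bundle Manifold MeasureTheory Set Filter
open scoped ContDiff Matrix Topology ENNReal

noncomputable section

set_option linter.all false

namespace Vale.Agent.P088.S4

open Vale.Agent.P088 Vale.Agent.P088.B Vale.Agent.P088.B2
open Vale.Agent.P088.EYM (One)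
open Vale.Agent.P088.R2.H710 (Start StepI rowGLOB)
open Vale.Agent.P088.R2.H455.S3 (LocS fin_two fin_one)

universe u

/-- **LX4**, the interior step for pairs. -/
def RowLX4 : Prop :=
  ∀ (n N : ℕ) [NeZero n] (M₁ M₂ : Type u)
    [TopologicalSpace M₁] [ChartedSpace (EuclideanHalfSpace n) M₁]
    [IsManifold (𝓡∂ n) ∞ M₁] [T2Space M₁] [CompactSpace M₁] [ConnectedSpace M₁] [MeasurableSpace M₁]
    [BorelSpace M₁] [TopologicalSpace M₂] [ChartedSpace (EuclideanHalfSpace n) M₂]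
    [IsManifold (𝓡∂ n) ∞ M₂] [T2Space M₂] [CompactSpace M₂] [ConnectedSpace M₂] [MeasurableSpace M₂]
    [BorelSpace M₂] (P : One n N M₁) (Q : One n N M₂) (G : TM.Gl M₁ M₂), 3 ≤ n → 1 ≤ N →
    G.Ok n N → TM.SameD P Q G → StepI P Q G

/-- **START4**, the start at the patch for pairs. -/
def RowSTART4 : Prop :=
  ∀ (n N : ℕ) [NeZero n] (M₁ M₂ : Type u)
    [TopologicalSpace M₁] [ChartedSpace (EuclideanHalfSpace n) M₁]
    [IsManifold (𝓡∂ n) ∞ M₁] [T2Space M₁] [CompactSpace M₁] [ConnectedSpace M₁] [MeasurableSpace M₁]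
    [BorelSpace M₁] [TopologicalSpace M₂] [ChartedSpace (EuclideanHalfSpace n) M₂]
    [IsManifold (𝓡∂ n) ∞ M₂] [T2Space M₂] [CompactSpace M₂] [ConnectedSpace M₂] [MeasurableSpace M₂]
    [BorelSpace M₂] (P : One n N M₁) (Q : One n N M₂) (G : TM.Gl M₁ M₂), 3 ≤ n → 1 ≤ N →
    G.Ok n N → TM.SameD P Q G → Start P Q G

theorem loc4 (hLX : RowLX4.{u}) (hST : RowSTART4.{u}) {n N : ℕ} [NeZero n] (hn : 3 ≤ n)
    (hN : 1 ≤ N) {M₁ M₂ : Type u}
    [TopologicalSpace M₁] [ChartedSpace (EuclideanHalfSpace n) M₁] [IsManifold (𝓡∂ n) ∞ M₁]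
    [T2Space M₁] [CompactSpace M₁] [ConnectedSpace M₁]
    [TopologicalSpace M₂] [ChartedSpace (EuclideanHalfSpace n) M₂] [IsManifold (𝓡∂ n) ∞ M₂]
    [T2Space M₂] [CompactSpace M₂] [ConnectedSpace M₂] [MeasurableSpace M₁] [BorelSpace M₁]
    [MeasurableSpace M₂] [BorelSpace M₂]
    (P : One n N M₁) (Q : One n N M₂) (G : TM.Gl M₁ M₂)
    (hG : G.Ok n N) (hD : TM.SameD P Q G) : LocS P Q G :=
  have hD' : TM.SameD Q P G.symm := TM.sameD_symm hG hD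
  ⟨hST n N M₁ M₂ P Q G hn hN hG hD, hST n N M₂ M₁ Q P G.symm hn hN hG.symm hD',
    hLX n N M₁ M₂ P Q G hn hN hG hD, hLX n N M₂ M₁ Q P G.symm hn hN hG.symm hD'⟩

/-- **Two manifolds**: equal data on a nonempty open part of the boundary determine the pair. -/
theorem pairs_two (hLX : RowLX4.{u}) (hST : RowSTART4.{u}) {n N : ℕ} [NeZero n] (hn : 3 ≤ n)
    (hN : 1 ≤ N) {M₁ M₂ : Type u}
    [TopologicalSpace M₁] [ChartedSpace (EuclideanHalfSpace n) M₁] [IsManifold (𝓡∂ n) ∞ M₁]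
    [T2Space M₁] [CompactSpace M₁] [ConnectedSpace M₁]
    [TopologicalSpace M₂] [ChartedSpace (EuclideanHalfSpace n) M₂] [IsManifold (𝓡∂ n) ∞ M₂]
    [T2Space M₂] [CompactSpace M₂] [ConnectedSpace M₂]
    (Γ₁ O₁ : Set M₁) (hO₁ : IsOpen O₁) (hΓ₁ : Γ₁ = O₁ ∩ bd (at_ n M₁))
    (Γ₂ O₂ : Set M₂) (hO₂ : IsOpen O₂) (hΓ₂ : Γ₂ = O₂ ∩ bd (at_ n M₂)) (hne₂ : Γ₂.Nonempty)
    (ψ : M₂ → M₁) (hψ : Iden N (at_ n M₁) (at_ n M₂) Γ₁ Γ₂ ψ) (P : Pair (at_ n M₁) N)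
    (Q : Pair (at_ n M₂) N) (hdata : SameData₂ Γ₁ Γ₂ ψ P Q) :
    UniqueRel₂ Γ₁ Γ₂ ψ P Q := by
  refine fin_two hn hN _ rfl _ rfl Γ₁ O₁ hO₁ hΓ₁ Γ₂ O₂ hO₂ hΓ₂ hne₂ ψ hψ P Q hdata
    fun P' Q' hPP hQQ χ hOk hS => ?_
  let _ : MeasurableSpace M₁ := borel M₁
  have _ : BorelSpace M₁ := ⟨rfl⟩
  let _ : MeasurableSpace M₂ := borel M₂
  have _ : BorelSpace M₂ := ⟨rfl⟩
  exact loc4 hLX hST hn hN (one P') (one Q') _ hOk hS

/-- **One manifold**: the conclusion of Q1, in full. -/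
theorem pairs_one (hLX : RowLX4.{u}) (hST : RowSTART4.{u}) {n N : ℕ} [NeZero n] (hn : 3 ≤ n)
    (hN : 1 ≤ N) {M : Type u} [TopologicalSpace M] [ChartedSpace (EuclideanHalfSpace n) M]
    [IsManifold (𝓡∂ n) ∞ M] [T2Space M] [CompactSpace M] [ConnectedSpace M]
    (Γ O : Set M) (hO : IsOpen O) (hΓ : Γ = O ∩ bd (at_ n M)) (hne : Γ.Nonempty)
    (P Q : Pair (at_ n M) N) (hd : B.SameData Γ P Q) : Related Γ P Q := by
  refine fin_one hn hN Γ O hO hΓ hne P Q hd fun χ hOk hS => ?_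
  let _ : MeasurableSpace M := borel M
  have _ : BorelSpace M := ⟨rfl⟩
  exact loc4 hLX hST hn hN (one P) (one Q) _ hOk hS

end Vale.Agent.P088.S4
end
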