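import Vale.Agent.P088.R2.H455.S4.Core4
import Vale.Agent.P088.R2.H354.Spec3n

/-!
# P088, stage 4: the normalised situation
-/

open MeasureTheory Set
open scoped ContDiff Matrix

noncomputable section

namespace Vale.Agent.P088.S4

open Vale.Agent.P088.LR Vale.Agent.P088.LR.U Vale.Agent.P088.LR.H158
open Vale.Agent.P088.PJ
open Vale.Agent.P088.HY.T3 (Eb e0)

/-- The data of two pairs: `s_j P_j` and `G_j` (see `PJ.Dt`), the first order coefficients `β` of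
the operator in `x`, the coordinate solutions `Y_a`, `Y_a + D_a`, the inverse `Γ` of `(∂_l Y_a)`, the
inverse `τ` of `s₁`. -/
structure PD (n N : ℕ) where
  j₀ : Fin N
  s₁ : MF n
  s₂ : MF n
  P₁ : MC n N
  P₂ : MC n N
  G₁ : Fin n → MC n N
  G₂ : Fin n → MC n N
  β : Fin n → MC n N
  Y : Fin n → MC n N
  D : Fin n → MC n N
  Γ : Fin n → Fin n → MC n N
  τ : MF n

variable {n N : ℕ}

/-- The data are reduced data on the chart `O`, equal off `K`. -/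
structure RLP (k : ℕ) (ε : ℝ) (O K : Set (V n)) (d : PD n N) : Prop where
  rl : RL k ε O K d.j₀ d.s₁ d.s₂ d.P₁ d.P₂ d.G₁ d.G₂ d.β d.Y d.D
  ig : IG k ε d.Y d.Γ
  st : SmM d.τ
  it : ∀ x, d.s₁ x * d.τ x = 1

/-- The normalised situation: the chart is the ball of radius `24`, the matched set `G` contains the
unit ball; flat off the ball of radius `32`. -/
structure NrmN (k : ℕ) (ε : ℝ) (d : PD n N) (G : Set (V n)) : Prop where
  oG : IsOpen G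
  b1 : Eb 0 1 ⊆ G
  rp : RLP k ε (Eb 0 24) Gᶜ d
  of : ∀ x ∉ Eb (0 : V n) 32, d.s₁ x = 1 ∧ d.s₂ x = 1 ∧ d.P₁ x = 1 ∧ d.P₂ x = 1 ∧
    (∀ i, d.G₁ i x = 0) ∧ (∀ i, d.G₂ i x = 0) ∧ (∀ i, d.β i x = 0) ∧ (∀ a, d.D a x = 0) ∧
    ∀ a, d.Y a x = (x a : ℂ) • 1

/-- The two pairs are equal at `x`. -/
def EqA (d : PD n N) (x : V n) : Prop :=
  d.s₂ x = d.s₁ x ∧ d.P₂ x = d.P₁ x ∧ (∀ i, d.G₂ i x = d.G₁ i x) ∧ ∀ a, d.D a x = 0

/-- `StpN` for the data. -/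
def StpD (O G : Set (V n)) (d : PD n N) : Prop :=
  StpN O G (TP d.s₁ d.P₁) (kp d.s₁ d.G₁) (TP d.s₂ d.P₂) (kp d.s₂ d.G₂)

/-- **CORE4n**, the normalised local theorem: the pairs agree near the touching point `e0`. -/
def RowCORE4n : Prop := ∀ n N : ℕ, 3 ≤ n → 1 ≤ N → ∃ (k : ℕ) (ε : ℝ), 0 < ε ∧
  ∀ (d : PD n N) (G : Set (V n)), NrmN k ε d G → StpD (Eb 0 24) G d →
  ∃ δ : ℝ, 0 < δ ∧ ∀ x ∈ Eb (e0 n) δ, EqA d x

/-- **NORM** for pairs. -/
def RowNORM4 : Prop := RowCORE4n → RowCORE4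

end Vale.Agent.P088.S4
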